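import Vale.Agent.P045.Final

/-! Ryser's conjecture is false, already for intersecting hypergraphs. -/

open Finset

namespace Vale.Agent.Results.P045.RyserFalse

/-- The hypergraph `H` (a finite set of edges, each a finite set of vertices) is `r`-partite and
`r`-uniform for the partition of the vertices given by `part`: every edge contains exactly one
vertex of each part. -/
def IsPartite {V : Type} [DecidableEq V] (r : ℕ) (part : V → Fin r) (H : Finset (Finset V)) :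
    Prop :=
  ∀ e ∈ H, ∀ i : Fin r, (e.filter fun v => part v = i).card = 1

/-- Covering number: least size of a vertex set meeting every edge. -/
noncomputable def tau {V : Type} (H : Finset (Finset V)) : ℕ :=
  sInf {n | ∃ T : Finset V, (∀ e ∈ H, ∃ v ∈ T, v ∈ e) ∧ T.card = n}

/-- Matching number: largest number of pairwise disjoint edges. -/
noncomputable def nu {V : Type} (H : Finset (Finset V)) : ℕ :=
  sSup {n | ∃ M : Finset (Finset V), M ⊆ H ∧ (∀ e ∈ M, ∀ f ∈ M, e ≠ f → Disjoint e f) ∧ M.card = n}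

lemma nu_eq_one {V : Type} [DecidableEq V] (H : Finset (Finset V)) (h0 : H.Nonempty)
    (h : ∀ e ∈ H, ∀ f ∈ H, (e ∩ f).Nonempty) : nu H = 1 := by
  apply IsGreatest.csSup_eq
  constructor
  · obtain ⟨e, he⟩ := h0
    exact ⟨{e}, by simpa using he, by simp, by simp⟩
  · rintro n ⟨M, hM, hd, rfl⟩
    rw [card_le_one]
    intro e he f hf
    by_contra hne
    have := h e (hM he) f (hM hf)
    rw [disjoint_iff_inter_eq_empty.1 (hd e he f hf hne)] at this
    simp at this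

lemma exists_example : ∃ q0 : ℕ, ∀ q ≥ q0, q.Prime →
    ∃ H : Finset (Finset (Fin (q + 1) × Fin (q + 1))), IsPartite (q + 1) Prod.fst H ∧
      H.Nonempty ∧ (∀ e ∈ H, ∀ f ∈ H, (e ∩ f).Nonempty) ∧ nu H = 1 ∧ tau H = q + 1 := by
  classical
  obtain ⟨q0, hq0⟩ := Vale.Agent.P045.main
  refine ⟨q0, fun q hq hp => ?_⟩
  have : Fact q.Prime := ⟨hp⟩
  obtain ⟨G, c, hG, hc, hcov⟩ := hq0 q hq
  let E : Option (ZMod q) ≃ Fin (q + 1) := Fintype.equivFinOfCardEq (by simp)
  let ed : (Option (ZMod q) → Option (ZMod q)) → Finset (Fin (q + 1) × Fin (q + 1)) :=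
    fun φ => univ.image fun d => (E d, E (φ d))
  have hed : ∀ φ v, v ∈ ed φ ↔ φ (E.symm v.1) = E.symm v.2 := by
    rintro φ ⟨a, b⟩
    simp only [ed, mem_image, mem_univ, true_and, Prod.mk.injEq]
    constructor
    · rintro ⟨d, rfl, rfl⟩; simp
    · intro h; exact ⟨E.symm a, by simp, by simp [h]⟩
  let H := (univ.filter (G.Edge c)).image ed
  have hH : ∀ e, e ∈ H ↔ ∃ φ, G.Edge c φ ∧ ed φ = e := by intro e; simp [H]
  have hne : H.Nonempty := ⟨_, (hH _).2 ⟨_, Or.inr ⟨(none, false), rfl⟩, rfl⟩⟩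
  have hint : ∀ e ∈ H, ∀ f ∈ H, (e ∩ f).Nonempty := by
    intro e he f hf
    obtain ⟨φ, h1, rfl⟩ := (hH _).1 he
    obtain ⟨ψ, h2, rfl⟩ := (hH _).1 hf
    obtain ⟨d, hd⟩ := Vale.Agent.P045.Cfg.intersecting hG hc h1 h2
    exact ⟨(E d, E (φ d)), mem_inter.2 ⟨(hed _ _).2 (by simp), (hed _ _).2 (by simp [hd])⟩⟩
  refine ⟨H, ?_, hne, hint, nu_eq_one H hne hint, ?_⟩
  · intro e he i
    obtain ⟨φ, -, rfl⟩ := (hH _).1 he
    rw [card_eq_one]
    refine ⟨(i, E (φ (E.symm i))), ?_⟩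
    ext ⟨a, b⟩
    simp only [mem_filter, hed, mem_singleton, Prod.mk.injEq]
    constructor
    · rintro ⟨h1, rfl⟩; simp [h1]
    · rintro ⟨rfl, rfl⟩; simp
  · apply IsLeast.csInf_eq
    constructor
    · refine ⟨univ.image fun b => (0, b), fun e he => ?_, ?_⟩
      · obtain ⟨φ, -, rfl⟩ := (hH _).1 he
        exact ⟨(0, E (φ (E.symm 0))), by simp, (hed _ _).2 (by simp)⟩
      · rw [card_image_of_injective _ fun a b h => (Prod.ext_iff.1 h).2]; simp
    · rintro n ⟨T, hT, rfl⟩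
      by_contra hlt
      obtain ⟨φ, h1, h2⟩ := hcov (T.image fun v => (E.symm v.1, E.symm v.2))
        (card_image_le.trans (by omega))
      obtain ⟨v, hv1, hv2⟩ := hT _ ((hH _).2 ⟨φ, h1, rfl⟩)
      exact h2 (E.symm v.1) (mem_image.2 ⟨v, hv1, by rw [(hed _ _).1 hv2]⟩)

theorem result :
    (¬ ∀ r : ℕ, 2 ≤ r → ∀ (V : Type) [Fintype V] [DecidableEq V] (part : V → Fin r)
        (H : Finset (Finset V)), IsPartite r part H → tau H ≤ (r - 1) * nu H) ∧
    (∃ q0 : ℕ, ∀ q ≥ q0, q.Prime →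
      ∃ H : Finset (Finset (Fin (q + 1) × Fin (q + 1))), IsPartite (q + 1) Prod.fst H ∧
        H.Nonempty ∧ (∀ e ∈ H, ∀ f ∈ H, (e ∩ f).Nonempty) ∧ nu H = 1 ∧ tau H = q + 1) := by
  refine ⟨fun h => ?_, exists_example⟩
  obtain ⟨q0, hq0⟩ := exists_example
  obtain ⟨q, hq, hp⟩ := Nat.exists_infinite_primes q0
  obtain ⟨H, h1, -, -, h2, h3⟩ := hq0 q hq hp
  have := h (q + 1) (by have := hp.two_le; omega) _ Prod.fst H h1
  rw [h2, h3] at this
  omega

end Vale.Agent.Results.P045.RyserFalse
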